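import Vale.Agent.Lib.P171.Main

/-!
# A stable tempered radial pair potential on `ℝ³` with a phase transition

There is a Borel measurable, locally bounded, stable and tempered radial pair potential `φ`
on `ℝ³` and an inverse temperature `β > 0` (in fact `β = 1`) such that the limit
`P z = lim_{L → ∞} L⁻³ log ∑_N z^N Z_{L,N}(β)` exists for all `z > 0` and the function `P` is not
differentiable at some activity `z₀ > 0`: a first-order phase transition in sense (a).
-/

open P171 in
/-- **Existence of a phase transition for a continuum radial pair potential.** -/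
theorem Vale.Agent.Results.P171.PhaseTransition.result :
    ∃ φ : ℝ → ℝ, Measurable φ ∧ LocallyBoundedOnPos φ ∧ IsStable φ ∧ IsTempered φ ∧
      ∃ β : ℝ, 0 < β ∧ ∃ P : ℝ → ℝ, IsPressure φ β P ∧
        ∃ z₀ : ℝ, 0 < z₀ ∧ ¬ DifferentiableAt ℝ P z₀ :=
  phaseTransitionExists
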