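import Vale.Agent.Lib.P171H.Final

/-!
A bounded, stable, tempered radial pair potential on three-dimensional space, with absolutely
integrable tail, whose pressure at inverse temperature one has a kink in the activity.
-/

open Vale.Agent.Lib.P171H in
/-- There is a measurable bounded radial pair potential, stable, tempered, with two-sided decay
`|φ r| ≤ C r^(-3-ε)` for `r ≥ 1`, having a phase transition of type (a): at `β = 1` the partition sums
converge, the limit defining the pressure exists for every activity `z > 0`, and it is not
differentiable at some `z₀ > 0`. -/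
theorem Vale.Agent.Results.P171.PressureKink.result :
    ∃ φ : ℝ → ℝ, Measurable φ ∧ (∃ M : ℝ, ∀ r, |φ r| ≤ M) ∧
      (∃ C ε : ℝ, 0 < C ∧ 0 < ε ∧ ∀ r : ℝ, 1 ≤ r → |φ r| ≤ C * r ^ (-3 - ε)) ∧
      IsLocBdd φ ∧ IsStable φ ∧ IsTempered φ ∧ HasPressureKink φ :=
  exists_potential_with_kink
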